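import Vale.Agent.P100.Main

open scoped Laplacian

/-- The Henon-Lane-Emden conjecture: no positive entire solution for subcritical parameters. -/
theorem Vale.Agent.Results.P100.LaneEmden.result :
    ∀ (n : ℕ) (p q A B : ℝ), 2 ≤ n → 0 < p → 0 < q →
      (n : ℝ) - 2 < ((n : ℝ) + A) / (p + 1) + ((n : ℝ) + B) / (q + 1) →
      ¬ ∃ u v : EuclideanSpace ℝ (Fin n) → ℝ, Continuous u ∧ Continuous v ∧
        ContDiffOn ℝ 2 u {0}ᶜ ∧ ContDiffOn ℝ 2 v {0}ᶜ ∧ (∀ x, 0 < u x) ∧ (∀ x, 0 < v x) ∧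
        (∀ x, x ≠ 0 → -(Δ u) x = ‖x‖ ^ A * v x ^ p) ∧
        (∀ x, x ≠ 0 → -(Δ v) x = ‖x‖ ^ B * u x ^ q) :=
  Vale.Agent.P100.main
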